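import Vale.Agent.P181.H303.Spec

/-! P181, row CO: cost of a product of powers of unit vectors. -/

set_option autoImplicit false

namespace Vale.Agent.P181.H822

open Finset Vale.Agent.P181.H303

/-- Coefficients of a polynomial bounded on the unit circle. -/
lemma coef (m : ℕ) (c : ℕ → ℂ) (C' : ℝ)
    (h : ∀ ζ : ℂ, ‖ζ‖ = 1 → ‖∑ k ∈ range (m + 1), c k * ζ ^ k‖ ≤ C') (k : ℕ) (hk : k ≤ m) :
    ‖c k‖ ≤ C' := by
  have hN : IsPrimitiveRoot (Complex.exp (2 * Real.pi * Complex.I / ((m + 1 : ℕ) : ℂ))) (m + 1) :=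
    Complex.isPrimitiveRoot_exp (m + 1) (by omega)
  set z : ℂ := Complex.exp (2 * Real.pi * Complex.I / ((m + 1 : ℕ) : ℂ)) with hz
  have hz1 : ‖z‖ = 1 := hN.norm'_eq_one (by omega)
  have hz0 : z ≠ 0 := by
    intro h0
    rw [h0, norm_zero] at hz1
    exact zero_ne_one hz1
  have key : ∑ j ∈ range (m + 1), ((z ^ j)⁻¹) ^ k * ∑ i ∈ range (m + 1), c i * (z ^ j) ^ i =
      ((m + 1 : ℕ) : ℂ) * c k := by
    have h1 : ∀ j ∈ range (m + 1), ((z ^ j)⁻¹) ^ k * ∑ i ∈ range (m + 1), c i * (z ^ j) ^ i =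
        ∑ i ∈ range (m + 1), c i * (z ^ i * (z⁻¹) ^ k) ^ j := by
      intro j _
      rw [mul_sum]
      refine sum_congr rfl fun i _ => ?_
      rw [mul_pow, ← pow_mul, ← pow_mul, ← inv_pow, ← pow_mul, ← pow_mul, mul_comm i j,
        mul_comm k j]
      ring
    rw [sum_congr rfl h1, sum_comm]
    have h2 : ∀ i ∈ range (m + 1), ∑ j ∈ range (m + 1), c i * (z ^ i * (z⁻¹) ^ k) ^ j =
        if i = k then ((m + 1 : ℕ) : ℂ) * c k else 0 := by
      intro i hi
      rw [← mul_sum]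
      split_ifs with hik
      · subst hik
        have : z ^ i * z⁻¹ ^ i = 1 := by
          rw [← mul_pow, mul_inv_cancel₀ hz0, one_pow]
        rw [this]
        simp
        ring
      · have hne : z ^ i * z⁻¹ ^ k ≠ 1 := by
          intro h1
          apply hik
          have : z ^ i = z ^ k := by
            calc z ^ i = z ^ i * z⁻¹ ^ k * z ^ k := by
                  rw [mul_assoc, ← mul_pow, inv_mul_cancel₀ hz0, one_pow, mul_one]
              _ = z ^ k := by rw [h1, one_mul]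
          exact hN.pow_inj (mem_range.1 hi) (by omega) this
        have hpow : (z ^ i * z⁻¹ ^ k) ^ (m + 1) = 1 := by
          rw [mul_pow, ← pow_mul, ← pow_mul, mul_comm i, mul_comm k, pow_mul, pow_mul, inv_pow,
            hN.pow_eq_one]
          simp
        rw [geom_sum_eq hne, hpow, sub_self, zero_div, mul_zero]
    rw [sum_congr rfl h2, sum_ite_eq' (range (m + 1)) k, if_pos (mem_range.2 (by omega))]
  have hb : ‖∑ j ∈ range (m + 1), ((z ^ j)⁻¹) ^ k * ∑ i ∈ range (m + 1), c i * (z ^ j) ^ i‖ ≤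
      ((m + 1 : ℕ) : ℝ) * C' := by
    refine (norm_sum_le _ _).trans ?_
    refine (sum_le_sum (g := fun _ => C') fun j _ => ?_).trans ?_
    · rw [norm_mul, norm_pow, norm_inv, norm_pow, hz1]
      simp only [one_pow, inv_one, one_mul]
      exact h _ (by rw [norm_pow, hz1, one_pow])
    · simp
  rw [key, norm_mul, Complex.norm_natCast] at hb
  exact le_of_mul_le_mul_left hb (by positivity)

/-- The largest term of the binomial expansion. -/
lemma mode (m1 m2 k : ℕ) (h2 : 0 < m2) :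
    k ≤ m1 + m2 → (m1 + m2).choose k * m1 ^ k * m2 ^ (m1 + m2 - k) ≤
      (m1 + m2).choose m1 * m1 ^ m1 * m2 ^ m2 := by
  set m := m1 + m2 with hm
  set t : ℕ → ℕ := fun k => m.choose k * m1 ^ k * m2 ^ (m - k) with ht
  have hrec : ∀ k, k < m → t (k + 1) * ((k + 1) * m2) = t k * ((m - k) * m1) := by
    intro k hk
    have e1 : m - k = (m - (k + 1)) + 1 := by omega
    have e2 : m.choose (k + 1) * (k + 1) = m.choose k * (m - k) := Nat.choose_succ_right_eq m k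
    simp only [ht]
    calc m.choose (k + 1) * m1 ^ (k + 1) * m2 ^ (m - (k + 1)) * ((k + 1) * m2)
        = (m.choose (k + 1) * (k + 1)) * m1 ^ (k + 1) * (m2 ^ (m - (k + 1)) * m2) := by ring
      _ = (m.choose k * (m - k)) * m1 ^ (k + 1) * (m2 ^ (m - k)) := by
          rw [e2, ← pow_succ, ← e1]
      _ = m.choose k * m1 ^ k * m2 ^ (m - k) * ((m - k) * m1) := by ring
  have hup : ∀ d, d ≤ m1 → t (m1 - d) ≤ t m1 := by
    intro d
    induction d with
    | zero => intro _; simp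
    | succ d ih =>
      intro hd
      refine le_trans ?_ (ih (by omega))
      have e : m1 - d = (m1 - (d + 1)) + 1 := by omega
      rw [e]
      set k := m1 - (d + 1) with hk
      have hkm : k < m := by omega
      have hr := hrec k hkm
      have hc : (k + 1) * m2 ≤ (m - k) * m1 := by
        have a1 : k + 1 ≤ m1 := by omega
        have a2 : m2 ≤ m - k := by omega
        calc (k + 1) * m2 ≤ m1 * (m - k) := Nat.mul_le_mul a1 a2
          _ = (m - k) * m1 := mul_comm _ _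
      have : t k * ((k + 1) * m2) ≤ t (k + 1) * ((k + 1) * m2) := by
        rw [hr]; exact Nat.mul_le_mul_left _ hc
      exact Nat.le_of_mul_le_mul_right this (by positivity)
  have hdn : ∀ d, m1 + d ≤ m → t (m1 + d) ≤ t m1 := by
    intro d
    induction d with
    | zero => intro _; simp
    | succ d ih =>
      intro hd
      refine le_trans ?_ (ih (by omega))
      have hr := hrec (m1 + d) (by omega)
      have hc : (m - (m1 + d)) * m1 ≤ (m1 + d + 1) * m2 := by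
        have a1 : m - (m1 + d) ≤ m2 := by omega
        have a2 : m1 ≤ m1 + d + 1 := by omega
        calc (m - (m1 + d)) * m1 ≤ m2 * (m1 + d + 1) := Nat.mul_le_mul a1 a2
          _ = (m1 + d + 1) * m2 := mul_comm _ _
      have : t (m1 + d + 1) * ((m1 + d + 1) * m2) ≤ t (m1 + d) * ((m1 + d + 1) * m2) := by
        rw [hr]; exact Nat.mul_le_mul_left _ hc
      exact Nat.le_of_mul_le_mul_right this (by positivity)
  intro hk
  have hfin : t k ≤ t m1 := by
    rcases le_total k m1 with h | h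
    · have := hup (m1 - k) (by omega)
      rwa [Nat.sub_sub_self h] at this
    · have := hdn (k - m1) (by omega)
      rwa [Nat.add_sub_cancel' h] at this
  have e3 : m - m1 = m2 := by omega
  simpa only [ht, e3] using hfin

lemma mode2 (m1 m2 : ℕ) :
    (m1 + m2) ^ (m1 + m2) ≤ (m1 + m2 + 1) * ((m1 + m2).choose m1 * m1 ^ m1 * m2 ^ m2) := by
  rcases Nat.eq_zero_or_pos m2 with h | h
  · subst h
    simp only [add_zero, Nat.choose_self, pow_zero, mul_one, one_mul]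
    nlinarith [Nat.zero_le (m1 ^ m1), Nat.zero_le m1]
  · rw [add_pow]
    calc ∑ k ∈ range (m1 + m2 + 1), m1 ^ k * m2 ^ (m1 + m2 - k) * (m1 + m2).choose k
        ≤ ∑ k ∈ range (m1 + m2 + 1), (m1 + m2).choose m1 * m1 ^ m1 * m2 ^ m2 := by
          refine sum_le_sum fun k hk => ?_
          have := mode m1 m2 k h (by have := mem_range.1 hk; omega)
          calc m1 ^ k * m2 ^ (m1 + m2 - k) * (m1 + m2).choose k
              = (m1 + m2).choose k * m1 ^ k * m2 ^ (m1 + m2 - k) := by ring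
            _ ≤ _ := this
      _ = _ := by simp

variable {n : ℕ}

lemma lin_add (u v : EE n) : lin (u + v) = lin u + lin v := by
  simp [lin, add_smul, sum_add_distrib]

lemma lin_smul (c : ℂ) (u : EE n) : lin (c • u) = c • lin u := by
  simp [lin, smul_sum, smul_smul]

lemma scal {b : ℕ} (T : MvPolynomial (Fin (n + 1)) ℂ →ₗ[ℂ] ℂ) (G : MvPolynomial (Fin (n + 1)) ℂ)
    (M : ℝ) (hT : ∀ u : EE (n + 1), ‖u‖ = 1 → ‖T (lin u ^ b * G)‖ ≤ M) (u : EE (n + 1)) :
    ‖T (lin u ^ b * G)‖ ≤ ‖u‖ ^ b * M := by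
  by_cases hu : u = 0
  · subst hu
    rcases Nat.eq_zero_or_pos b with h | h
    · subst h
      have := hT (EuclideanSpace.single 0 1) (by simp)
      simpa using this
    · have h0 : lin (0 : EE (n + 1)) = 0 := by simp [lin]
      rw [h0, zero_pow h.ne', zero_mul, map_zero, norm_zero]
      simp [h.ne']
  · have hn : ‖u‖ ≠ 0 := norm_ne_zero_iff.2 hu
    have hu1 : u = ((‖u‖ : ℝ) : ℂ) • (((‖u‖⁻¹ : ℝ) : ℂ) • u) := by
      rw [smul_smul, ← Complex.ofReal_mul, mul_inv_cancel₀ hn, Complex.ofReal_one, one_smul]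
    have h1 : ‖((‖u‖⁻¹ : ℝ) : ℂ) • u‖ = 1 := by
      rw [norm_smul, Complex.norm_real, norm_inv, norm_norm, inv_mul_cancel₀ hn]
    have h2 := hT _ h1
    have h3 : lin u ^ b * G = (((‖u‖ : ℝ) : ℂ) ^ b) •
        (lin (((‖u‖⁻¹ : ℝ) : ℂ) • u) ^ b * G) := by
      conv_lhs => rw [hu1, lin_smul]
      rw [smul_pow, smul_mul_assoc]
    rw [h3, map_smul, norm_smul, norm_pow, Complex.norm_real, norm_norm]
    exact mul_le_mul_of_nonneg_left h2 (by positivity)

/-- Merging two vectors. -/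
lemma merge (T : MvPolynomial (Fin n) ℂ →ₗ[ℂ] ℂ) (G : MvPolynomial (Fin n) ℂ) (u v : EE n)
    (m1 m2 : ℕ) (hm : 0 < m1 + m2) (C' : ℝ)
    (h : ∀ ζ : ℂ, ‖ζ‖ = 1 → ‖T (lin (((m1 : ℂ) / ((m1 + m2 : ℕ) : ℂ)) • u +
      (ζ * ((m2 : ℂ) / ((m1 + m2 : ℕ) : ℂ))) • v) ^ (m1 + m2) * G)‖ ≤ C') :
    ‖T (lin u ^ m1 * lin v ^ m2 * G)‖ ≤ ((m1 + m2 : ℕ) + 1 : ℝ) * C' := by
  set m := m1 + m2 with hmm
  set α : ℂ := (m1 : ℂ) / (m : ℂ) with hα
  set β : ℂ := (m2 : ℂ) / (m : ℂ) with hβ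
  have hexp : ∀ ζ : ℂ, T (lin (α • u + (ζ * β) • v) ^ m * G) =
      ∑ k ∈ range (m + 1), ((m.choose k : ℂ) * β ^ k * α ^ (m - k) *
        T (lin v ^ k * lin u ^ (m - k) * G)) * ζ ^ k := by
    intro ζ
    rw [lin_add, lin_smul, lin_smul, add_comm, add_pow, sum_mul, map_sum]
    refine sum_congr rfl fun k _ => ?_
    rw [smul_pow, smul_pow]
    have : ((ζ * β) ^ k • lin v ^ k * α ^ (m - k) • lin u ^ (m - k) *
        ((m.choose k : ℕ) : MvPolynomial (Fin n) ℂ) * G) =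
        ((m.choose k : ℂ) * β ^ k * α ^ (m - k) * ζ ^ k) •
          (lin v ^ k * lin u ^ (m - k) * G) := by
      simp only [MvPolynomial.smul_eq_C_mul, map_mul, map_pow, map_natCast]
      ring
    rw [this, map_smul, smul_eq_mul]
    ring
  have hc := coef m (fun k => (m.choose k : ℂ) * β ^ k * α ^ (m - k) *
        T (lin v ^ k * lin u ^ (m - k) * G)) C'
    (fun ζ hζ => by rw [← hexp]; exact h ζ hζ) m2 (by omega)
  have e1 : m - m2 = m1 := by omega
  simp only [e1] at hc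
  rw [norm_mul, norm_mul, norm_mul, norm_pow, norm_pow, hα, hβ, norm_div, norm_div,
    Complex.norm_natCast, Complex.norm_natCast, Complex.norm_natCast, Complex.norm_natCast] at hc
  have hmp : (0 : ℝ) < (m : ℝ) := by exact_mod_cast hm
  have hmode : (1 : ℝ) ≤ ((m : ℝ) + 1) * ((m.choose m2 : ℝ) * ((m2 : ℝ) / m) ^ m2 *
      ((m1 : ℝ) / m) ^ m1) := by
    have h1 := mode2 m1 m2
    rw [← hmm] at h1
    have h2 : ((m : ℝ)) ^ m ≤ ((m : ℝ) + 1) * ((m.choose m1 : ℝ) * (m1 : ℝ) ^ m1 *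
        (m2 : ℝ) ^ m2) := by exact_mod_cast h1
    have h3 : m.choose m2 = m.choose m1 := by
      rw [← e1]; exact (Nat.choose_symm (by omega)).symm
    have h4 : (m : ℝ) ^ m = (m : ℝ) ^ m1 * (m : ℝ) ^ m2 := by
      rw [← pow_add]
    rw [h3, div_pow, div_pow]
    have h5 : ((m : ℝ) + 1) * ((m.choose m1 : ℝ) * ((m2 : ℝ) ^ m2 / (m : ℝ) ^ m2) *
        ((m1 : ℝ) ^ m1 / (m : ℝ) ^ m1)) = (((m : ℝ) + 1) * ((m.choose m1 : ℝ) *
        (m1 : ℝ) ^ m1 * (m2 : ℝ) ^ m2)) / (m : ℝ) ^ m := by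
      rw [h4]
      field_simp
    rw [h5, le_div_iff₀ (by positivity), one_mul]
    exact h2
  have e2 : lin v ^ m2 * lin u ^ m1 * G = lin u ^ m1 * lin v ^ m2 * G := by ring
  rw [e2] at hc
  set X := ‖T (lin u ^ m1 * lin v ^ m2 * G)‖ with hX
  have hX0 : 0 ≤ X := norm_nonneg _
  calc X = 1 * X := (one_mul X).symm
    _ ≤ (((m : ℝ) + 1) * ((m.choose m2 : ℝ) * ((m2 : ℝ) / m) ^ m2 *
      ((m1 : ℝ) / m) ^ m1)) * X := mul_le_mul_of_nonneg_right hmode hX0
    _ = ((m : ℝ) + 1) * ((m.choose m2 : ℝ) * ((m2 : ℝ) / m) ^ m2 *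
      ((m1 : ℝ) / m) ^ m1 * X) := by ring
    _ ≤ ((m : ℝ) + 1) * C' := mul_le_mul_of_nonneg_left hc (by positivity)

/-- Product of the powers in a list. -/
noncomputable def pr (l : List (EE n × ℕ)) : MvPolynomial (Fin n) ℂ :=
  (l.map (fun p => lin p.1 ^ p.2)).prod

/-- Total exponent of a list. -/
def sm (l : List (EE n × ℕ)) : ℕ := (l.map Prod.snd).sum

lemma norm_w (u v : EE n) (hu : ‖u‖ ≤ 1) (hv : ‖v‖ ≤ 1) (m1 m2 : ℕ) (hm : 0 < m1 + m2) (ζ : ℂ)
    (hζ : ‖ζ‖ = 1) : ‖((m1 : ℂ) / ((m1 + m2 : ℕ) : ℂ)) • u +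
      (ζ * ((m2 : ℂ) / ((m1 + m2 : ℕ) : ℂ))) • v‖ ≤ 1 := by
  have hmp : (0 : ℝ) < ((m1 + m2 : ℕ) : ℝ) := by exact_mod_cast hm
  refine (norm_add_le _ _).trans ?_
  rw [norm_smul, norm_smul, norm_mul, hζ, one_mul, norm_div, norm_div, Complex.norm_natCast,
    Complex.norm_natCast, Complex.norm_natCast]
  have h1 : (m1 : ℝ) / ((m1 + m2 : ℕ) : ℝ) * ‖u‖ ≤ (m1 : ℝ) / ((m1 + m2 : ℕ) : ℝ) * 1 :=
    mul_le_mul_of_nonneg_left hu (by positivity)
  have h2 : (m2 : ℝ) / ((m1 + m2 : ℕ) : ℝ) * ‖v‖ ≤ (m2 : ℝ) / ((m1 + m2 : ℕ) : ℝ) * 1 :=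
    mul_le_mul_of_nonneg_left hv (by positivity)
  have h3 : (m1 : ℝ) / ((m1 + m2 : ℕ) : ℝ) * 1 + (m2 : ℝ) / ((m1 + m2 : ℕ) : ℝ) * 1 = 1 := by
    rw [mul_one, mul_one, ← add_div, Nat.cast_add, div_self]
    rw [← Nat.cast_add]; exact hmp.ne'
  linarith

lemma cost {b : ℕ} (T : MvPolynomial (Fin (n + 1)) ℂ →ₗ[ℂ] ℂ) (M : ℝ)
    (hT : ∀ u : EE (n + 1), ‖u‖ = 1 → ‖T (lin u ^ b)‖ ≤ M) (hM : 0 ≤ M) :
    ∀ (l : List (EE (n + 1) × ℕ)) (p : EE (n + 1) × ℕ), ‖p.1‖ ≤ 1 → (∀ q ∈ l, ‖q.1‖ ≤ 1) →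
      p.2 + sm l = b → ‖T (lin p.1 ^ p.2 * pr l)‖ ≤ ((b : ℝ) + 1) ^ l.length * M := by
  intro l
  induction l with
  | nil =>
    intro p hp _ hb
    simp only [sm, List.map_nil, List.sum_nil, add_zero] at hb
    have h1 := scal (b := b) T 1 M (fun u hu => by rw [mul_one]; exact hT u hu) p.1
    simp only [pr, List.map_nil, List.prod_nil, List.length_nil, pow_zero, one_mul]
    rw [hb]
    exact h1.trans (mul_le_of_le_one_left hM (pow_le_one₀ (norm_nonneg _) hp))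
  | cons q l ih =>
    intro p hp hl hb
    have hq : ‖q.1‖ ≤ 1 := hl q (by simp)
    have hl' : ∀ q ∈ l, ‖q.1‖ ≤ 1 := fun q' hq' => hl q' (by simp [hq'])
    have hsm : sm (q :: l) = q.2 + sm l := by simp [sm]
    have hpr : pr (q :: l) = lin q.1 ^ q.2 * pr l := by simp [pr]
    have hb1 : (1 : ℝ) ≤ (b : ℝ) + 1 := by
      have : (0 : ℝ) ≤ b := Nat.cast_nonneg b
      linarith
    rw [hsm] at hb
    rw [hpr, List.length_cons]
    rcases Nat.eq_zero_or_pos (p.2 + q.2) with h0 | h0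
    · have hp0 : p.2 = 0 := by omega
      have hq0 : q.2 = 0 := by omega
      have := ih p hp hl' (by omega)
      rw [hp0] at this
      rw [hp0, hq0]
      simp only [pow_zero, one_mul] at this ⊢
      refine this.trans (mul_le_mul_of_nonneg_right ?_ hM)
      exact pow_le_pow_right₀ hb1 (by omega)
    · rw [← mul_assoc]
      refine (merge T (pr l) p.1 q.1 p.2 q.2 h0 (((b : ℝ) + 1) ^ l.length * M)
        (fun ζ hζ => ?_)).trans ?_
      · exact ih (((p.2 : ℂ) / ((p.2 + q.2 : ℕ) : ℂ)) • p.1 +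
          (ζ * ((q.2 : ℂ) / ((p.2 + q.2 : ℕ) : ℂ))) • q.1, p.2 + q.2)
          (norm_w _ _ hp hq _ _ h0 ζ hζ) hl' (by simp only; omega)
      · have hle : ((p.2 + q.2 : ℕ) + 1 : ℝ) ≤ (b : ℝ) + 1 := by
          have : ((p.2 + q.2 : ℕ) : ℝ) ≤ (b : ℝ) := by exact_mod_cast (by omega)
          linarith
        calc ((p.2 + q.2 : ℕ) + 1 : ℝ) * (((b : ℝ) + 1) ^ l.length * M)
            ≤ ((b : ℝ) + 1) * (((b : ℝ) + 1) ^ l.length * M) :=
              mul_le_mul_of_nonneg_right hle (by positivity)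
          _ = ((b : ℝ) + 1) ^ (l.length + 1) * M := by ring

/-- The norm of the merged vector for a separated pair. -/
lemma norm_sep (u v : EE n) (hu : ‖u‖ = 1) (hv : ‖v‖ = 1) (m1 m2 : ℕ) (hm : 0 < m1 + m2) (ζ : ℂ)
    (hζ : ‖ζ‖ = 1) (δ : ℝ) (hδ : 0 ≤ δ) (h : ‖inner ℂ u v‖ ^ 2 ≤ 1 - δ) :
    ‖((m1 : ℂ) / ((m1 + m2 : ℕ) : ℂ)) • u +
      (ζ * ((m2 : ℂ) / ((m1 + m2 : ℕ) : ℂ))) • v‖ ^ 2 ≤
      1 - ((m1 : ℝ) / ((m1 + m2 : ℕ) : ℝ)) * ((m2 : ℝ) / ((m1 + m2 : ℕ) : ℝ)) * δ := by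
  have hmp : (0 : ℝ) < ((m1 + m2 : ℕ) : ℝ) := by exact_mod_cast hm
  set α : ℝ := (m1 : ℝ) / ((m1 + m2 : ℕ) : ℝ) with hα
  set β : ℝ := (m2 : ℝ) / ((m1 + m2 : ℕ) : ℝ) with hβ
  have hα0 : 0 ≤ α := by positivity
  have hβ0 : 0 ≤ β := by positivity
  have hαβ : α + β = 1 := by
    rw [hα, hβ, ← add_div, Nat.cast_add, div_self]
    rw [← Nat.cast_add]; exact hmp.ne'
  have ea : (m1 : ℂ) / ((m1 + m2 : ℕ) : ℂ) = ((α : ℝ) : ℂ) := by
    rw [hα]; push_cast; rfl
  have eb : (m2 : ℂ) / ((m1 + m2 : ℕ) : ℂ) = ((β : ℝ) : ℂ) := by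
    rw [hβ]; push_cast; rfl
  rw [ea, eb]
  have h1 := norm_add_sq (𝕜 := ℂ) (((α : ℝ) : ℂ) • u) ((ζ * ((β : ℝ) : ℂ)) • v)
  have h2 : ‖((α : ℝ) : ℂ) • u‖ = α := by
    rw [norm_smul, hu, mul_one, Complex.norm_real, Real.norm_of_nonneg hα0]
  have h3 : ‖(ζ * ((β : ℝ) : ℂ)) • v‖ = β := by
    rw [norm_smul, hv, mul_one, norm_mul, hζ, one_mul, Complex.norm_real,
      Real.norm_of_nonneg hβ0]
  have h4 : RCLike.re (inner ℂ (((α : ℝ) : ℂ) • u) ((ζ * ((β : ℝ) : ℂ)) • v)) ≤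
      α * β * ‖inner ℂ u v‖ := by
    refine (RCLike.re_le_norm _).trans ?_
    rw [inner_smul_left, inner_smul_right, norm_mul, norm_mul, norm_mul, hζ, one_mul,
      RCLike.norm_conj, Complex.norm_real, Complex.norm_real, Real.norm_of_nonneg hα0,
      Real.norm_of_nonneg hβ0]
    exact le_of_eq (by ring)
  rw [h1, h2, h3]
  set s := ‖inner ℂ u v‖ with hs
  have hs0 : 0 ≤ s := norm_nonneg _
  have hs1 : s ≤ 1 - δ / 2 := by
    have hd1 : δ ≤ 1 := by nlinarith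
    nlinarith
  have h5 : α * β * s ≤ α * β * (1 - δ / 2) :=
    mul_le_mul_of_nonneg_left hs1 (by positivity)
  have h6 : (α + β) ^ 2 = 1 := by rw [hαβ, one_pow]
  nlinarith

lemma norm_sep_pow (u v : EE n) (hu : ‖u‖ = 1) (hv : ‖v‖ = 1) (m1 m2 : ℕ) (hm : 0 < m1 + m2)
    (ζ : ℂ) (hζ : ‖ζ‖ = 1) (δ : ℝ) (hδ : 0 ≤ δ) (h : ‖inner ℂ u v‖ ^ 2 ≤ 1 - δ) (t : ℝ)
    (h1 : t ≤ m1) (h2 : t ≤ m2) :
    ‖((m1 : ℂ) / ((m1 + m2 : ℕ) : ℂ)) • u +
      (ζ * ((m2 : ℂ) / ((m1 + m2 : ℕ) : ℂ))) • v‖ ^ (m1 + m2) ≤ Real.exp (-(t * δ / 4)) := by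
  have hmp : (0 : ℝ) < ((m1 + m2 : ℕ) : ℝ) := by exact_mod_cast hm
  have h3 := norm_sep u v hu hv m1 m2 hm ζ hζ δ hδ h
  set w := ‖((m1 : ℂ) / ((m1 + m2 : ℕ) : ℂ)) • u +
      (ζ * ((m2 : ℂ) / ((m1 + m2 : ℕ) : ℂ))) • v‖ with hw
  have hw0 : 0 ≤ w := norm_nonneg _
  set e : ℝ := ((m1 : ℝ) / ((m1 + m2 : ℕ) : ℝ)) * ((m2 : ℝ) / ((m1 + m2 : ℕ) : ℝ)) * δ with he
  have h4 : w ^ 2 ≤ Real.exp (-e) := by
    have := Real.add_one_le_exp (-e)
    linarith
  have h5 : (w ^ (m1 + m2)) ^ 2 ≤ (Real.exp (-(t * δ / 4))) ^ 2 := by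
    calc (w ^ (m1 + m2)) ^ 2 = (w ^ 2) ^ (m1 + m2) := by ring
      _ ≤ (Real.exp (-e)) ^ (m1 + m2) := pow_le_pow_left₀ (by positivity) h4 _
      _ = Real.exp (((m1 + m2 : ℕ) : ℝ) * (-e)) := by rw [← Real.exp_nat_mul]
      _ ≤ Real.exp ((2 : ℕ) * (-(t * δ / 4))) := by
          apply Real.exp_le_exp.2
          have h6 : t / 2 ≤ ((m1 + m2 : ℕ) : ℝ) *
              (((m1 : ℝ) / ((m1 + m2 : ℕ) : ℝ)) * ((m2 : ℝ) / ((m1 + m2 : ℕ) : ℝ))) := by
            have e1 : ((m1 + m2 : ℕ) : ℝ) *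
              (((m1 : ℝ) / ((m1 + m2 : ℕ) : ℝ)) * ((m2 : ℝ) / ((m1 + m2 : ℕ) : ℝ))) =
              (m1 : ℝ) * m2 / ((m1 + m2 : ℕ) : ℝ) := by
              field_simp
            rw [e1, le_div_iff₀ hmp]
            push_cast
            have a1 : t * (m1 : ℝ) ≤ m2 * m1 := mul_le_mul_of_nonneg_right h2 (Nat.cast_nonneg _)
            have a2 : t * (m2 : ℝ) ≤ m1 * m2 := mul_le_mul_of_nonneg_right h1 (Nat.cast_nonneg _)
            nlinarith
          have h7 : t / 2 * δ ≤ ((m1 + m2 : ℕ) : ℝ) * e := by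
            rw [he, ← mul_assoc]
            exact mul_le_mul_of_nonneg_right h6 hδ
          push_cast at h7 ⊢
          linarith
      _ = (Real.exp (-(t * δ / 4))) ^ 2 := by rw [Real.exp_nat_mul]
  exact le_of_sq_le_sq h5 (Real.exp_pos _).le

theorem rowCO : RowCO := by
  classical
  intro n b ι _ x m hx hb
  have hb1 : (1 : ℝ) ≤ (b : ℝ) + 1 := by
    have : (0 : ℝ) ≤ b := Nat.cast_nonneg b
    linarith
  refine ⟨?_, ?_⟩
  · intro T M hT
    have hM : 0 ≤ M := (norm_nonneg _).trans (hT (EuclideanSpace.single 0 1) (by simp))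
    have h1 := cost T M hT hM ((univ : Finset ι).toList.map (fun i => (x i, m i)))
      (EuclideanSpace.single 0 1, 0) (by simp) (by
        intro q hq
        obtain ⟨i, _, rfl⟩ := List.mem_map.1 hq
        exact (hx i).le) (by
        simp only [sm, List.map_map, zero_add]
        rw [← hb]
        exact Finset.sum_map_toList univ m)
    have e1 : pr ((univ : Finset ι).toList.map (fun i => (x i, m i))) =
        ∏ i, lin (x i) ^ m i := by
      simp only [pr, List.map_map]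
      exact Finset.prod_map_toList univ (fun i => lin (x i) ^ m i)
    rw [e1, pow_zero, one_mul, List.length_map, Finset.length_toList, Finset.card_univ] at h1
    exact h1
  · intro i j t δ hij ht hti htj hδ hin T M hT
    have hM : 0 ≤ M := (norm_nonneg _).trans (hT (EuclideanSpace.single 0 1) (by simp))
    set S : Finset ι := (univ.erase i).erase j with hS
    set l : List (EE (n + 1) × ℕ) := S.toList.map (fun i => (x i, m i)) with hl
    have hj : j ∈ (univ : Finset ι).erase i := by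
      rw [mem_erase]; exact ⟨hij.symm, mem_univ _⟩
    have e1 : pr l = ∏ i ∈ S, lin (x i) ^ m i := by
      simp only [pr, hl, List.map_map]
      exact Finset.prod_map_toList S (fun i => lin (x i) ^ m i)
    have e2 : ∏ i, lin (x i) ^ m i = lin (x i) ^ m i * lin (x j) ^ m j * pr l := by
      rw [e1, mul_assoc, hS, Finset.mul_prod_erase _ (fun i => lin (x i) ^ m i) hj,
        Finset.mul_prod_erase _ (fun i => lin (x i) ^ m i) (mem_univ i)]
    have e3 : m i + m j + sm l = b := by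
      have : sm l = ∑ i ∈ S, m i := by
        simp only [sm, hl, List.map_map]
        exact Finset.sum_map_toList S m
      rw [this, add_assoc, hS, Finset.add_sum_erase _ m hj,
        Finset.add_sum_erase _ m (mem_univ i), hb]
    have hlen : l.length + 1 ≤ Fintype.card ι := by
      rw [hl, List.length_map, Finset.length_toList, hS, card_erase_of_mem hj,
        card_erase_of_mem (mem_univ i), card_univ]
      have : 1 < Fintype.card ι := Fintype.one_lt_card_iff.2 ⟨i, j, hij⟩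
      omega
    have hln : ∀ q ∈ l, ‖q.1‖ ≤ 1 := by
      intro q hq
      obtain ⟨i, _, rfl⟩ := List.mem_map.1 hq
      exact (hx i).le
    rw [e2]
    have hpow : ((b : ℝ) + 1) ^ (l.length + 1) ≤ ((b : ℝ) + 1) ^ Fintype.card ι :=
      pow_le_pow_right₀ hb1 hlen
    rcases Nat.eq_zero_or_pos (m i + m j) with h0 | h0
    · have hi0 : m i = 0 := by omega
      have hj0 : m j = 0 := by omega
      have ht0 : t = 0 := by
        rw [hi0] at hti
        push_cast at hti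
        linarith
      have := cost T M hT hM l (x i, 0) (hx i).le hln (by simp only; omega)
      rw [hi0, hj0, ht0]
      simp only [pow_zero, one_mul, zero_mul, zero_div, neg_zero, Real.exp_zero, mul_one] at this ⊢
      refine this.trans (mul_le_mul_of_nonneg_right ?_ hM)
      exact pow_le_pow_right₀ hb1 (by omega)
    · refine (merge T (pr l) (x i) (x j) (m i) (m j) h0
        (((b : ℝ) + 1) ^ l.length * (Real.exp (-(t * δ / 4)) * M)) (fun ζ hζ => ?_)).trans ?_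
      · have h5 := norm_sep_pow (x i) (x j) (hx i) (hx j) (m i) (m j) h0 ζ hζ δ hδ hin t hti htj
        set w := ((m i : ℂ) / ((m i + m j : ℕ) : ℂ)) • (x i) +
          (ζ * ((m j : ℂ) / ((m i + m j : ℕ) : ℂ))) • (x j) with hw
        have h6 := scal (b := m i + m j) T (pr l) (((b : ℝ) + 1) ^ l.length * M)
          (fun u hu => cost T M hT hM l (u, m i + m j) hu.le hln (by simp only; omega)) w
        refine h6.trans ?_
        calc ‖w‖ ^ (m i + m j) * (((b : ℝ) + 1) ^ l.length * M)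
            ≤ Real.exp (-(t * δ / 4)) * (((b : ℝ) + 1) ^ l.length * M) :=
              mul_le_mul_of_nonneg_right h5 (by positivity)
          _ = _ := by ring
      · have hle : ((m i + m j : ℕ) + 1 : ℝ) ≤ (b : ℝ) + 1 := by
          have : ((m i + m j : ℕ) : ℝ) ≤ (b : ℝ) := by exact_mod_cast (by omega)
          linarith
        calc ((m i + m j : ℕ) + 1 : ℝ) * (((b : ℝ) + 1) ^ l.length *
              (Real.exp (-(t * δ / 4)) * M))
            ≤ ((b : ℝ) + 1) * (((b : ℝ) + 1) ^ l.length * (Real.exp (-(t * δ / 4)) * M)) :=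
              mul_le_mul_of_nonneg_right hle (by positivity)
          _ = ((b : ℝ) + 1) ^ (l.length + 1) * (Real.exp (-(t * δ / 4)) * M) := by ring
          _ ≤ ((b : ℝ) + 1) ^ Fintype.card ι * (Real.exp (-(t * δ / 4)) * M) :=
              mul_le_mul_of_nonneg_right hpow (by positivity)
          _ = _ := by ring

end Vale.Agent.P181.H822
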